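import Vale.Agent.P032.Words5.H227.TabG

/-!
# Words on a circle: only the pentagon

`X0` is the letter of the colour which is missing at the centre, `Y i j` is the letter of the pair
`{i, j}` of colours of the centre (`i, j : Fin 5`), `P i j` says that this letter is used.  If every
colour is in at most two pairs, the pairs are the sides of a pentagon.
-/

namespace Vale.Agent.P032.Words.G5

open Set Filter Topology

/-- legal hexagons -/
def Leg5 (A B : ℕ) (h : Fin 6 → Fin 5) : Prop :=
  (∀ k, rel A (h k).val (h (k + 1)).val = true) ∧ ∀ k, rel B (h k).val (h (k + 3)).val = true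

/-- the code of a hexagon -/
def code (h : Fin 6 → Fin 5) : ℕ :=
  (h 0).val + 5 * (h 1).val + 25 * (h 2).val + 125 * (h 3).val + 625 * (h 4).val
    + 3125 * (h 5).val

theorem code_lt (h : Fin 6 → Fin 5) : code h < 15625 := by
  have h0 := (h 0).isLt
  have h1 := (h 1).isLt
  have h2 := (h 2).isLt
  have h3 := (h 3).isLt
  have h4 := (h 4).isLt
  have h5 := (h 5).isLt
  unfold code
  omega

theorem dg_code (h : Fin 6 → Fin 5) (k : Fin 6) : dg (code h) k.val = (h k).val := by
  have h0 := (h 0).isLt
  have h1 := (h 1).isLt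
  have h2 := (h 2).isLt
  have h3 := (h 3).isLt
  have h4 := (h 4).isLt
  have h5 := (h 5).isLt
  fin_cases k <;> simp only [dg, code, Fin.zero_eta, Fin.mk_one, Fin.reduceFinMk] <;> norm_num <;> omega

theorem code_update (h : Fin 6 → Fin 5) (k : Fin 6) (l : Fin 5) :
    code (Function.update h k l) = upd (code h) k.val l.val := by
  have hd := dg_code h k
  unfold upd
  rw [hd]
  have h0 := (h 0).isLt
  have h1 := (h 1).isLt
  have h2 := (h 2).isLt
  have h3 := (h 3).isLt
  have h4 := (h 4).isLt
  have h5 := (h 5).isLt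
  fin_cases k <;> simp [code, Function.update] <;> omega

theorem code_rot (h : Fin 6 → Fin 5) : code (rot h) = rotN (code h) := by
  have h0 := (h 0).isLt
  have h1 := (h 1).isLt
  have h2 := (h 2).isLt
  have h3 := (h 3).isLt
  have h4 := (h 4).isLt
  have h5 := (h 5).isLt
  have e0 : rot h 0 = h 1 := rfl
  have e1 : rot h 1 = h 2 := rfl
  have e2 : rot h 2 = h 3 := rfl
  have e3 : rot h 3 = h 4 := rfl
  have e4 : rot h 4 = h 5 := rfl
  have e5 : rot h 5 = h 0 := rfl
  unfold rotN code
  rw [e0, e1, e2, e3, e4, e5]
  omega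

theorem legN_code {A B : ℕ} {h : Fin 6 → Fin 5} (hl : Leg5 A B h) :
    legN A B (code h) = true := by
  obtain ⟨ha, hb⟩ := hl
  have d : ∀ k : Fin 6, dg (code h) k.val = (h k).val := dg_code h
  have d0 : dg (code h) 0 = (h 0).val := d 0
  have d1 : dg (code h) 1 = (h 1).val := d 1
  have d2 : dg (code h) 2 = (h 2).val := d 2
  have d3 : dg (code h) 3 = (h 3).val := d 3
  have d4 : dg (code h) 4 = (h 4).val := d 4
  have d5 : dg (code h) 5 = (h 5).val := d 5
  have a0 : rel A (h 0).val (h 1).val = true := ha 0
  have a1 : rel A (h 1).val (h 2).val = true := ha 1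
  have a2 : rel A (h 2).val (h 3).val = true := ha 2
  have a3 : rel A (h 3).val (h 4).val = true := ha 3
  have a4 : rel A (h 4).val (h 5).val = true := ha 4
  have a5 : rel A (h 5).val (h 0).val = true := ha 5
  have b0 : rel B (h 0).val (h 3).val = true := hb 0
  have b1 : rel B (h 1).val (h 4).val = true := hb 1
  have b2 : rel B (h 2).val (h 5).val = true := hb 2
  unfold legN
  rw [d0, d1, d2, d3, d4, d5, a0, a1, a2, a3, a4, a5, b0, b1, b2]
  rfl

theorem all_range {n : ℕ} {p : ℕ → Bool} (h : (List.range n).all p = true) {i : ℕ} (hi : i < n) :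
    p i = true := List.all_eq_true.mp h i (List.mem_range.mpr hi)

theorem chk_at {A B T : ℕ} (hc : chk A B T = true) {h : Fin 6 → Fin 5} (hl : Leg5 A B h) :
    (!(cN T (rotN (code h)) == cN T (code h)) &&
      (List.range 6).all fun k => (List.range 5).all fun l =>
        !rel B (dg (code h) k) l || !legN A B (upd (code h) k l) ||
          (cN T (upd (code h) k l) == cN T (code h))) = true := by
  have hlt := code_lt h
  have e : 125 * (code h / 125) + code h % 125 = code h := by omega
  have a := all_range (all_range hc (i := code h / 125) (by omega)) (i := code h % 125) (by omega)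
  rw [e, legN_code hl, Bool.not_true, Bool.false_or] at a
  exact a

theorem step_of_chk {A B T : ℕ} (hc : chk A B T = true) (h : Fin 6 → Fin 5) (k : Fin 6)
    (l : Fin 5) (h1 : Leg5 A B h) (h2 : Leg5 A B (Function.update h k l))
    (h3 : rel B (h k).val l.val = true) :
    cN T (code (Function.update h k l)) = cN T (code h) := by
  have a := (Bool.and_eq_true_iff.mp (chk_at hc h1)).2
  have b := all_range (all_range a k.isLt) l.isLt
  rw [← code_update, legN_code h2, dg_code, h3] at b
  simpa using b

theorem rot_of_chk {A B T : ℕ} (hc : chk A B T = true) {h : Fin 6 → Fin 5} (h1 : Leg5 A B h) :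
    cN T (code (rot h)) ≠ cN T (code h) := by
  have a := (Bool.and_eq_true_iff.mp (chk_at hc h1)).1
  rw [← code_rot] at a
  simpa using a

/-- no word -/
theorem no_word {A B T : ℕ} (hc : chk A B T = true) {X : Fin 5 → Set ℝ}
    (w : Word X (Leg5 A B)) (hf : ∀ u a b, u ∈ X a → u ∈ X b → rel B a.val b.val = true) :
    False := by
  have hstep : ∀ (h : Fin 6 → Fin 5) k l, Leg5 A B h → Leg5 A B (Function.update h k l) →
      (fun x y : Fin 5 => rel B x.val y.val = true) (h k) l →
      (fun g => cN T (code g)) (Function.update h k l) = (fun g => cN T (code g)) h :=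
    fun h k l h1 h2 h3 => step_of_chk hc h k l h1 h2 h3
  have key := w.const_Ioo (cmp := fun g => cN T (code g)) hstep isPreconnected_univ
    (fun u _ k a b ha hb => hf _ a b ha hb) (mem_univ (0 : ℝ)) (mem_univ (0 + 1))
  rw [w.st_add_one] at key
  exact rot_of_chk hc (w.leg 0 _ (w.st_mem 0)) key.symm

/-- no word with exact contacts -/
theorem no_tw {A B T : ℕ} (hc : chk A B T = true) {X : Fin 5 → Set ℝ}
    {Mk : Fin 5 → Fin 5 → Prop} {lam : ℝ → Fin 5}
    (w : TW X (Leg5 A B) Mk lam) (hf : ∀ u a b, u ∈ X a → u ∈ X b → rel B a.val b.val = true) :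
    False := by
  have hstep : ∀ (h : Fin 6 → Fin 5) k l, Leg5 A B h → Leg5 A B (Function.update h k l) →
      (fun x y : Fin 5 => rel B x.val y.val = true) (h k) l →
      (fun g => cN T (code g)) (Function.update h k l) = (fun g => cN T (code g)) h :=
    fun h k l h1 h2 h3 => step_of_chk hc h k l h1 h2 h3
  have key := w.const_Ioo (cmp := fun g => cN T (code g)) hstep isPreconnected_univ
    (fun u _ k a b ha hb => hf _ a b ha hb) (mem_univ (0 : ℝ)) (mem_univ (0 + 1))
  rw [w.st_add_one] at key
  exact rot_of_chk hc (w.leg_st 0) key.symm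

end Vale.Agent.P032.Words.G5
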