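import Vale.Agent.P032.Words5.H227.Graph5

/-!
# Words on a circle: only the pentagon

`X0` is the letter of the colour which is missing at the centre, `Y i j` is the letter of the pair
`{i, j}` of colours of the centre (`i, j : Fin 5`), `P i j` says that this letter is used.  If every
colour is in at most two pairs, the pairs are the sides of a pentagon.
-/

namespace Vale.Agent.P032.Words.G5

open Set Filter Topology

/-- the word of a five coloured centre, arbitrary pairs -/
structure W5 (X0 : Set ℝ) (Y : Fin 5 → Fin 5 → Set ℝ) (P : Fin 5 → Fin 5 → Prop) : Prop where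
  closed0 : IsClosed X0
  closed : ∀ i j, IsClosed (Y i j)
  symm : ∀ i j, P i j → P j i
  ysymm : ∀ i j u, u ∈ Y i j → u ∈ Y j i
  irr : ∀ i, ¬ P i i
  cover : ∀ u, u ∈ X0 ∨ ∃ i j, P i j ∧ u ∈ Y i j
  per0 : ∀ u, u + 6 ∈ X0 ↔ u ∈ X0
  per : ∀ i j u, u + 6 ∈ Y i j ↔ u ∈ Y i j
  sixty0 : ∀ u, u ∈ X0 → u + 1 ∉ X0
  sixty : ∀ u i j k l, P i j → P k l → u ∈ Y i j → u + 1 ∈ Y k l → i ≠ k
  three : ∀ u i j k l, P i j → P k l → u ∈ Y i j → u ∈ Y k l → i = k ∨ i = l ∨ j = k ∨ j = l
  anti : ∀ u i j k l, P i j → P k l → u ∈ Y i j → u + 3 ∈ Y k l → i = k ∨ i = l ∨ j = k ∨ j = l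

/-- the word of a five coloured centre from the 60 degree rule and the rule on opposite letters -/
theorem word_of {A B : ℕ} {X : Fin 5 → Set ℝ} (closed : ∀ l, IsClosed (X l))
    (cover : ∀ u, ∃ l, u ∈ X l) (per : ∀ l u, u + 6 ∈ X l ↔ u ∈ X l)
    (sixty : ∀ u l m, u ∈ X l → u + 1 ∈ X m → rel A l.val m.val = true)
    (anti : ∀ u l m, u ∈ X l → u + 3 ∈ X m → rel B l.val m.val = true) :
    Word X (Leg5 A B) := by
  refine ⟨closed, cover, per, ?_⟩
  intro u h hh
  constructor
  · intro k
    by_cases h5 : k = 5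
    · subst h5
      have h1 := hh 5
      have h2 := hh 0
      have e1 : ((5 : Fin 6)).val = 5 := rfl
      have e2 : ((0 : Fin 6)).val = 0 := rfl
      have e3 : (5 : Fin 6) + 1 = 0 := rfl
      rw [e3]
      rw [e1] at h1
      rw [e2] at h2
      refine sixty _ _ _ h1 ?_
      have : u + ((5 : ℕ) : ℝ) + 1 = (u + ((0 : ℕ) : ℝ)) + 6 := by push_cast; ring
      rw [this, per]
      exact h2
    · have h1 := hh k
      have h2 := hh (k + 1)
      have e : (k + 1).val = k.val + 1 := by
        have : k.val ≠ 5 := fun h => h5 (Fin.ext h)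
        have h6 := k.isLt
        rw [Fin.val_add_one_of_lt]
        rw [Fin.lt_def]
        show k.val < 5
        omega
      rw [e] at h2
      refine sixty _ _ _ h1 ?_
      have : u + (k.val : ℝ) + 1 = u + ((k.val + 1 : ℕ) : ℝ) := by push_cast; ring
      rw [this]
      exact h2
  · intro k
    have a := hh k
    have b := hh (k + 3)
    refine anti _ _ _ a ?_
    by_cases hk : k.val < 3
    · have e : (k + 3).val = k.val + 3 := by
        rw [Fin.val_add]
        show (k.val + 3) % 6 = k.val + 3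
        omega
      rw [e] at b
      have : u + (k.val : ℝ) + 3 = u + ((k.val + 3 : ℕ) : ℝ) := by push_cast; ring
      rw [this]
      exact b
    · have e : (k + 3).val = k.val - 3 := by
        rw [Fin.val_add]
        show (k.val + 3) % 6 = k.val - 3
        have := k.isLt
        omega
      rw [e] at b
      have : u + (k.val : ℝ) + 3 = u + ((k.val - 3 : ℕ) : ℝ) + 6 := by
        rw [Nat.cast_sub (not_lt.mp hk)]
        push_cast
        ring
      rw [this, per]
      exact b

/-- one graph without closed words -/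
theorem kill {A B T : ℕ} (hc : chk A B T = true) (a b : Fin 5 → Fin 5)
    (hA : ∀ l m : Fin 5, (l ≠ 0 ∨ m ≠ 0) →
      (l = 0 ∨ m = 0 ∨ (a l ≠ a m ∧ a l ≠ b m ∧ b l ≠ a m ∧ b l ≠ b m)) →
      rel A l.val m.val = true)
    (hB : ∀ l m : Fin 5, (l = 0 ∨ m = 0 ∨ a l = a m ∨ a l = b m ∨ b l = a m ∨ b l = b m) →
      rel B l.val m.val = true)
    {X0 : Set ℝ} {Y : Fin 5 → Fin 5 → Set ℝ} {P : Fin 5 → Fin 5 → Prop} (w : W5 X0 Y P)
    {c : Fin 5 → Fin 5} (hci : Function.Injective c)
    (hsub : ∀ i j, P (c i) (c j) → ∃ l, l ≠ 0 ∧ ((i = a l ∧ j = b l) ∨ (i = b l ∧ j = a l))) :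
    False := by
  have hcs : Function.Surjective c := Finite.surjective_of_injective hci
  set X : Fin 5 → Set ℝ := fun l =>
    if l = 0 then X0 else {u | u ∈ Y (c (a l)) (c (b l)) ∧ P (c (a l)) (c (b l))} with hX
  have hX0 : ∀ u, u ∈ X 0 ↔ u ∈ X0 := by intro u; simp only [hX, if_true]
  have hXl : ∀ l, l ≠ 0 → ∀ u, u ∈ X l ↔ u ∈ Y (c (a l)) (c (b l)) ∧ P (c (a l)) (c (b l)) := by
    intro l hl u
    simp only [hX, if_neg hl, mem_ofPred_eq]
  have hcl : ∀ l, IsClosed (X l) := by
    intro l
    by_cases hl : l = 0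
    · simp only [hX, hl, if_true]; exact w.closed0
    · simp only [hX, if_neg hl]
      by_cases hP : P (c (a l)) (c (b l))
      · have e : {u | u ∈ Y (c (a l)) (c (b l)) ∧ P (c (a l)) (c (b l))} = Y (c (a l)) (c (b l)) := by
          ext u; simp [hP]
        rw [e]; exact w.closed _ _
      · have e : {u | u ∈ Y (c (a l)) (c (b l)) ∧ P (c (a l)) (c (b l))} = ∅ := by
          ext u; simp [hP]
        rw [e]; exact isClosed_empty
  have hshare : ∀ l m, (c (a l) = c (a m) ∨ c (a l) = c (b m) ∨ c (b l) = c (a m) ∨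
      c (b l) = c (b m)) → rel B l.val m.val = true := by
    intro l m h
    refine hB l m ?_
    rcases h with h | h | h | h
    · exact Or.inr (Or.inr (Or.inl (hci h)))
    · exact Or.inr (Or.inr (Or.inr (Or.inl (hci h))))
    · exact Or.inr (Or.inr (Or.inr (Or.inr (Or.inl (hci h)))))
    · exact Or.inr (Or.inr (Or.inr (Or.inr (Or.inr (hci h)))))
  have hword : Word X (Leg5 A B) := by
    refine word_of hcl ?_ ?_ ?_ ?_
    · intro u
      rcases w.cover u with h | ⟨i, j, hP, hu⟩
      · exact ⟨0, (hX0 u).2 h⟩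
      · obtain ⟨i', rfl⟩ := hcs i
        obtain ⟨j', rfl⟩ := hcs j
        obtain ⟨l, hl, ⟨rfl, rfl⟩ | ⟨rfl, rfl⟩⟩ := hsub i' j' hP
        · exact ⟨l, (hXl l hl u).2 ⟨hu, hP⟩⟩
        · exact ⟨l, (hXl l hl u).2 ⟨w.ysymm _ _ _ hu, w.symm _ _ hP⟩⟩
    · intro l u
      by_cases hl : l = 0
      · rw [hl, hX0, hX0]; exact w.per0 u
      · rw [hXl l hl, hXl l hl, w.per]
    · intro u l m h1 h2
      by_cases hl : l = 0
      · by_cases hm : m = 0
        · rw [hl, hX0] at h1
          rw [hm, hX0] at h2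
          exact absurd h2 (w.sixty0 u h1)
        · exact hA l m (Or.inr hm) (Or.inl hl)
      · by_cases hm : m = 0
        · exact hA l m (Or.inl hl) (Or.inr (Or.inl hm))
        · rw [hXl l hl] at h1
          rw [hXl m hm] at h2
          have k1 := w.sixty u _ _ _ _ h1.2 h2.2 h1.1 h2.1
          have k2 := w.sixty u _ _ _ _ h1.2 (w.symm _ _ h2.2) h1.1 (w.ysymm _ _ _ h2.1)
          have k3 := w.sixty u _ _ _ _ (w.symm _ _ h1.2) h2.2 (w.ysymm _ _ _ h1.1) h2.1
          have k4 := w.sixty u _ _ _ _ (w.symm _ _ h1.2) (w.symm _ _ h2.2) (w.ysymm _ _ _ h1.1)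
            (w.ysymm _ _ _ h2.1)
          exact hA l m (Or.inl hl) (Or.inr (Or.inr ⟨fun h => k1 (congrArg c h),
            fun h => k2 (congrArg c h), fun h => k3 (congrArg c h), fun h => k4 (congrArg c h)⟩))
    · intro u l m h1 h2
      by_cases hl : l = 0
      · exact hB l m (Or.inl hl)
      · by_cases hm : m = 0
        · exact hB l m (Or.inr (Or.inl hm))
        · rw [hXl l hl] at h1
          rw [hXl m hm] at h2
          exact hshare l m (w.anti u _ _ _ _ h1.2 h2.2 h1.1 h2.1)
  refine no_word hc hword ?_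
  intro u l m h1 h2
  by_cases hl : l = 0
  · exact hB l m (Or.inl hl)
  · by_cases hm : m = 0
    · exact hB l m (Or.inr (Or.inl hm))
    · rw [hXl l hl] at h1
      rw [hXl m hm] at h2
      exact hshare l m (w.three u _ _ _ _ h1.2 h2.2 h1.1 h2.1)

/-! ### graphs on five vertices -/

/-- the number of a pair, `15` on the diagonal -/
def pIdx (i j : ℕ) : ℕ := (1235584595880409318522160881935 >>> (4 * (5 * i + j))) % 16

/-- adjacency -/
def adjN (m i j : ℕ) : Bool := Nat.testBit m (pIdx i j)

/-- digits of a permutation -/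
def inj5 (s : ℕ) : Bool :=
  (List.range 5).all fun i => (List.range 5).all fun j => i == j || !(dg s i == dg s j)

/-- every vertex has at most two neighbours -/
def degN (m : ℕ) : Bool :=
  (List.range 5).all fun i => (List.range 5).all fun j => !adjN m i j || (List.range 5).all fun k =>
    !adjN m i k || j == k || (List.range 5).all fun l => !adjN m i l || k == l || j == l

/-- `s` maps the pentagon into `m` -/
def penN (m s : ℕ) : Bool :=
  (List.range 5).all fun i => adjN m (dg s i) (dg s ((i + 1) % 5))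

/-- `m` is contained in the image of the graph `G` -/
def subN (G m s : ℕ) : Bool :=
  (List.range 5).all fun i => (List.range 5).all fun j => !adjN m (dg s i) (dg s j) ||
    Nat.testBit G (5 * i + j)

/-- the graphs as `5 × 5` tables -/
def gC4 : ℕ := 174250
def gTK : ℕ := 8916134
def gP5 : ℕ := 9054370

/-- the permutations -/
def perms : List ℕ := [2930, 2430, 2830, 1830, 2230, 1730, 2910, 2410, 2710, 1210, 2110, 1110, 2790, 1790, 2690, 1190,
  1490, 990, 2170, 1670, 2070, 1070, 1470, 970, 2926, 2426, 2826, 1826, 2226, 1726, 2886, 2386,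
  2586, 586, 1986, 486, 2766, 1766, 2566, 566, 1366, 366, 2146, 1646, 1946, 446, 1346, 346, 2902,
  2402, 2702, 1202, 2102, 1102, 2882, 2382, 2582, 582, 1982, 482, 2642, 1142, 2542, 542, 742,
  242, 2022, 1022, 1922, 422, 722, 222, 2778, 1778, 2678, 1178, 1478, 978, 2758, 1758, 2558, 558,
  1358, 358, 2638, 1138, 2538, 538, 738, 238, 1398, 898, 1298, 298, 698, 198, 2154, 1654, 2054,
  1054, 1454, 954, 2134, 1634, 1934, 434, 1334, 334, 2014, 1014, 1914, 414, 714, 214, 1394, 894,
  1294, 294, 694, 194]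

/-- every graph with all degrees at most two contains a pentagon or is contained in a copy of one of
the three graphs -/
def chkG : Bool :=
  (List.range 1024).all fun m => !degN m || perms.any fun s =>
    (penN m s || subN gC4 m s || subN gTK m s || subN gP5 m s)

theorem chkG_true : chkG = true := by decide +kernel

theorem perms_inj : perms.all inj5 = true := by decide +kernel

/-- the vertices of a letter -/
def la (t : ℕ) (l : Fin 5) : Fin 5 := ⟨dg t l.val, Nat.mod_lt _ (by norm_num)⟩

def mk (G t t' : ℕ) : Prop := ∀ i j : Fin 5, Nat.testBit G (5 * i.val + j.val) = true →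
      ∃ l : Fin 5, l ≠ 0 ∧ ((i = la t l ∧ j = la t' l) ∨ (i = la t' l ∧ j = la t l))

theorem mk_C4 : mk gC4 2150 430 := by unfold mk; decide +kernel
theorem mk_TK : mk gTK 1900 2805 := by unfold mk; decide +kernel
theorem mk_P5 : mk gP5 2150 2930 := by unfold mk; decide +kernel

/-- the relation table `A` -/
def okA (A t t' : ℕ) : Prop := ∀ l m : Fin 5, (l ≠ 0 ∨ m ≠ 0) →
      (l = 0 ∨ m = 0 ∨ (la t l ≠ la t m ∧ la t l ≠ la t' m ∧ la t' l ≠ la t m ∧ la t' l ≠ la t' m)) →
      rel A l.val m.val = true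

/-- the relation table `B` -/
def okB (B t t' : ℕ) : Prop := ∀ l m : Fin 5, (l = 0 ∨ m = 0 ∨ la t l = la t m ∨ la t l = la t' m ∨
      la t' l = la t m ∨ la t' l = la t' m) → rel B l.val m.val = true

theorem okA_C4 : okA AC4 2150 430 := by unfold okA; decide +kernel
theorem okA_TK : okA ATK 1900 2805 := by unfold okA; decide +kernel
theorem okA_P5 : okA AP5 2150 2930 := by unfold okA; decide +kernel
theorem okB_C4 : okB BC4 2150 430 := by unfold okB; decide +kernel
theorem okB_TK : okB BTK 1900 2805 := by unfold okB; decide +kernel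
theorem okB_P5 : okB BP5 2150 2930 := by unfold okB; decide +kernel

/-- **Only the pentagon** -/
theorem W5.pentagon {X0 : Set ℝ} {Y : Fin 5 → Fin 5 → Set ℝ} {P : Fin 5 → Fin 5 → Prop}
    (w : W5 X0 Y P) (deg : ∀ i j k l, P i j → P i k → P i l → j = k ∨ k = l ∨ j = l) :
    ∃ c : Fin 5 → Fin 5, Function.Injective c ∧ (∀ i, P (c i) (c (i + 1))) ∧
      ∀ i j, P i j → ∃ k, (i = c k ∧ j = c (k + 1)) ∨ (i = c (k + 1) ∧ j = c k) := by
  classical
  -- the code of the graph
  set f : Fin 10 → Bool := fun t => match t with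
    | 0 => decide (P 0 1) | 1 => decide (P 0 2) | 2 => decide (P 0 3) | 3 => decide (P 0 4)
    | 4 => decide (P 1 2) | 5 => decide (P 1 3) | 6 => decide (P 1 4) | 7 => decide (P 2 3)
    | 8 => decide (P 2 4) | 9 => decide (P 3 4) with hf
  set m : ℕ := Nat.ofBits f with hm
  have hlt : m < 1024 := Nat.ofBits_lt_two_pow f
  have hbit : ∀ t : Fin 10, Nat.testBit m t.val = f t := fun t => Nat.testBit_ofBits_lt f t.val t.isLt
  have b0 : Nat.testBit m 0 = decide (P 0 1) := hbit 0
  have b1 : Nat.testBit m 1 = decide (P 0 2) := hbit 1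
  have b2 : Nat.testBit m 2 = decide (P 0 3) := hbit 2
  have b3 : Nat.testBit m 3 = decide (P 0 4) := hbit 3
  have b4 : Nat.testBit m 4 = decide (P 1 2) := hbit 4
  have b5 : Nat.testBit m 5 = decide (P 1 3) := hbit 5
  have b6 : Nat.testBit m 6 = decide (P 1 4) := hbit 6
  have b7 : Nat.testBit m 7 = decide (P 2 3) := hbit 7
  have b8 : Nat.testBit m 8 = decide (P 2 4) := hbit 8
  have b9 : Nat.testBit m 9 = decide (P 3 4) := hbit 9
  have b15 : Nat.testBit m 15 = false := Nat.testBit_lt_two_pow (lt_trans hlt (by norm_num))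
  have hadj : ∀ i j : Fin 5, adjN m i.val j.val = true ↔ P i j := by
    have key : ∀ i j : Fin 5, P i j ↔ P j i := fun i j => ⟨w.symm i j, w.symm j i⟩
    have kk : ∀ (i j : Fin 5) (n : ℕ), pIdx i.val j.val = n → (Nat.testBit m n = true ↔ P i j) →
        (adjN m i.val j.val = true ↔ P i j) := by
      intro i j n h1 h2
      unfold adjN
      rw [h1]
      exact h2
    have d : ∀ (i j : Fin 5) (n : ℕ), Nat.testBit m n = decide (P i j) → (Nat.testBit m n = true ↔ P i j) := by
      intro i j n h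
      rw [h, decide_eq_true_iff]
    have d' : ∀ (i j : Fin 5) (n : ℕ), Nat.testBit m n = decide (P i j) → (Nat.testBit m n = true ↔ P j i) := by
      intro i j n h
      rw [h, decide_eq_true_iff, key]
    have dd : ∀ (i : Fin 5), (Nat.testBit m 15 = true ↔ P i i) := by
      intro i
      rw [b15]
      constructor
      · intro h; exact absurd h (by decide)
      · intro h; exact absurd h (w.irr i)
    intro i j
    fin_cases i <;> fin_cases j
    · exact kk 0 0 15 (by decide) (dd 0)
    · exact kk 0 1 0 (by decide) (d 0 1 0 b0)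
    · exact kk 0 2 1 (by decide) (d 0 2 1 b1)
    · exact kk 0 3 2 (by decide) (d 0 3 2 b2)
    · exact kk 0 4 3 (by decide) (d 0 4 3 b3)
    · exact kk 1 0 0 (by decide) (d' 0 1 0 b0)
    · exact kk 1 1 15 (by decide) (dd 1)
    · exact kk 1 2 4 (by decide) (d 1 2 4 b4)
    · exact kk 1 3 5 (by decide) (d 1 3 5 b5)
    · exact kk 1 4 6 (by decide) (d 1 4 6 b6)
    · exact kk 2 0 1 (by decide) (d' 0 2 1 b1)
    · exact kk 2 1 4 (by decide) (d' 1 2 4 b4)
    · exact kk 2 2 15 (by decide) (dd 2)
    · exact kk 2 3 7 (by decide) (d 2 3 7 b7)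
    · exact kk 2 4 8 (by decide) (d 2 4 8 b8)
    · exact kk 3 0 2 (by decide) (d' 0 3 2 b2)
    · exact kk 3 1 5 (by decide) (d' 1 3 5 b5)
    · exact kk 3 2 7 (by decide) (d' 2 3 7 b7)
    · exact kk 3 3 15 (by decide) (dd 3)
    · exact kk 3 4 9 (by decide) (d 3 4 9 b9)
    · exact kk 4 0 3 (by decide) (d' 0 4 3 b3)
    · exact kk 4 1 6 (by decide) (d' 1 4 6 b6)
    · exact kk 4 2 8 (by decide) (d' 2 4 8 b8)
    · exact kk 4 3 9 (by decide) (d' 3 4 9 b9)
    · exact kk 4 4 15 (by decide) (dd 4)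
  have hdeg : degN m = true := by
    unfold degN
    rw [List.all_eq_true]
    intro i hi
    rw [List.all_eq_true]
    intro j hj
    rw [List.mem_range] at hi hj
    rw [Bool.or_eq_true, Bool.not_eq_true']
    by_cases h1 : adjN m i j = false
    · exact Or.inl h1
    rw [Bool.not_eq_false] at h1
    refine Or.inr ?_
    rw [List.all_eq_true]
    intro k hk
    rw [List.mem_range] at hk
    rw [Bool.or_eq_true, Bool.or_eq_true, Bool.not_eq_true', beq_iff_eq]
    by_cases h2 : adjN m i k = false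
    · exact Or.inl (Or.inl h2)
    rw [Bool.not_eq_false] at h2
    by_cases h4 : j = k
    · exact Or.inl (Or.inr h4)
    refine Or.inr ?_
    rw [List.all_eq_true]
    intro l hl
    rw [List.mem_range] at hl
    by_contra hc
    simp only [Bool.or_eq_true, Bool.not_eq_true', beq_iff_eq, not_or, Bool.not_eq_false] at hc
    obtain ⟨⟨h3, h5⟩, h6⟩ := hc
    have p1 := (hadj ⟨i, hi⟩ ⟨j, hj⟩).1 h1
    have p2 := (hadj ⟨i, hi⟩ ⟨k, hk⟩).1 h2
    have p3 := (hadj ⟨i, hi⟩ ⟨l, hl⟩).1 h3
    rcases deg _ _ _ _ p1 p2 p3 with h | h | h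
    · exact h4 (congrArg Fin.val h)
    · exact h5 (congrArg Fin.val h)
    · exact h6 (congrArg Fin.val h)
  have hall := all_range chkG_true hlt
  rw [hdeg, Bool.not_true, Bool.false_or, List.any_eq_true] at hall
  obtain ⟨s, hs, hcase⟩ := hall
  have hinj := List.all_eq_true.mp perms_inj s hs
  set c : Fin 5 → Fin 5 := la s with hc
  have hcv : ∀ i : Fin 5, (c i).val = dg s i.val := fun i => rfl
  have hci : Function.Injective c := by
    intro i j hij
    have h1 := all_range (all_range hinj i.isLt) j.isLt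
    simp only [Bool.or_eq_true, beq_iff_eq, Bool.not_eq_true', beq_eq_false_iff_ne] at h1
    rcases h1 with h1 | h1
    · exact Fin.ext h1
    · exact absurd (congrArg Fin.val hij) h1
  have hsub : ∀ G, subN G m s = true → ∀ i j : Fin 5, P (c i) (c j) →
      Nat.testBit G (5 * i.val + j.val) = true := by
    intro G hG i j hP
    have h1 := all_range (all_range hG i.isLt) j.isLt
    have h2 := (hadj (c i) (c j)).2 hP
    rw [hcv, hcv] at h2
    rw [h2] at h1
    simpa using h1
  simp only [Bool.or_eq_true] at hcase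
  rcases hcase with ((h | h) | h) | h
  · have hp : ∀ i : Fin 5, P (c i) (c (i + 1)) := by
      intro i
      have h1 := all_range h i.isLt
      have e : (i + 1 : Fin 5).val = (i.val + 1) % 5 := by rw [Fin.val_add]; rfl
      rw [← e, ← hcv, ← hcv] at h1
      exact (hadj _ _).1 h1
    refine ⟨c, hci, hp, ?_⟩
    intro i j hP
    obtain ⟨k, rfl⟩ := Finite.surjective_of_injective hci i
    have h1 := hp k
    have h2 := w.symm _ _ (hp (k - 1))
    rw [sub_add_cancel] at h2
    rcases deg _ _ _ _ hP h1 h2 with h3 | h3 | h3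
    · exact ⟨k, Or.inl ⟨rfl, h3⟩⟩
    · have hk : ∀ k : Fin 5, k + 1 ≠ k - 1 := by decide
      exact absurd (hci h3) (hk k)
    · exact ⟨k - 1, Or.inr ⟨by rw [sub_add_cancel], h3⟩⟩
  · exact absurd (kill chk_C4 _ _ okA_C4 okB_C4 w hci
      fun i j hP => mk_C4 i j (hsub _ h i j hP)) not_false
  · exact absurd (kill chk_TK _ _ okA_TK okB_TK w hci
      fun i j hP => mk_TK i j (hsub _ h i j hP)) not_false
  · exact absurd (kill chk_P5 _ _ okA_P5 okB_P5 w hci
      fun i j hP => mk_P5 i j (hsub _ h i j hP)) not_false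

end Vale.Agent.P032.Words.G5
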